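import Vale.Agent.P075.Stmt
import Vale.Agent.P075.Full

/-!
# P075, Q2: the dyadic triangular Hilbert form is bounded on `L³ × L³ × L³`

The answer to Q2 (dyadic model) is affirmative.  The estimate holds with absolute values inside the
sum over all triples of dyadic intervals.
-/

namespace Vale.Agent.Results.P075.DyadicTriangular

open Vale.Agent.P075.Dy

/-- There is a constant `C` (at most `66048`) such that, for all real bounded compactly supported
measurable `F₀, F₁, F₂` and all finite sets `S` of scales: for every scale the sum of `L_I` over the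
XOR-triples `I` converges absolutely, the sum of all `|L_I|` over the scales in `S` is at most
`C ‖F₀‖₃ ‖F₁‖₃ ‖F₂‖₃`, and the dyadic triangular Hilbert form with coefficients `|ε_k| ≤ 1` is at
most `C ‖F₀‖₃ ‖F₁‖₃ ‖F₂‖₃` in absolute value. -/
theorem result :
    ∃ C : ℝ, C ≤ 66048 ∧ ∀ F₀ F₁ F₂ : ℝ × ℝ → ℝ, AdmL F₀ → AdmL F₁ → AdmL F₂ →
      ∀ S : Finset ℤ,
        (∀ k ∈ S, Summable fun n : XorTriple => |LForm k n F₀ F₁ F₂|) ∧
        (∑ k ∈ S, ∑' n : XorTriple, |LForm k n F₀ F₁ F₂| ≤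
          C * (norm3 F₀ * norm3 F₁ * norm3 F₂)) ∧
        ∀ ε : ℤ → ℝ, (∀ k ∈ S, |ε k| ≤ 1) →
          |Lam S ε F₀ F₁ F₂| ≤ C * (norm3 F₀ * norm3 F₁ * norm3 F₂) := by
  refine ⟨66048, le_rfl, fun F₀ F₁ F₂ h0 h1 h2 S => ?_⟩
  have h := full h0 h1 h2 S
  exact ⟨h.1, h.2, fun ε hε => Lam_le S h ε hε⟩

end Vale.Agent.Results.P075.DyadicTriangular
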